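import Vale.Agent.Lib.P200b.BaseChange

open MvPolynomial Module

namespace Vale.Agent.Results.P200.ThreeBB

open Vale.Agent.P200 Vale.Agent.P200b

/-- **The Eisenbud-Green-Harris conjecture for degrees `(3, b, b)` in three variables.**
Let `K` be any field, `S = K[x, y, z]`, `b ≥ 4`, and let `I` be a homogeneous ideal of `S`
containing a regular sequence `f1, f2, f3` of forms of degrees `3, b, b`. Then the lex-plus-powers
graded subspace `J = ⨁ J_d`, with `J_d` spanned by `P_d` and the `q_d = dim I_d - dim P_d`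
lex-greatest monomials of degree `d` outside `P = (x³, y^b, z^b)`, is an ideal, with the Hilbert
function of `I`. -/
theorem result {K : Type*} [Field K] (I : Ideal (S K))
    (_hI : ∀ p ∈ I, ∀ n, homogeneousComponent n p ∈ I)
    (b : ℕ) (hb : 4 ≤ b) (f1 f2 f3 : S K) (h1 : f1 ∈ H K 3) (h2 : f2 ∈ H K b) (h3 : f3 ∈ H K b)
    (hreg : RegSeq f1 f2 f3) (m1 : f1 ∈ I) (m2 : f2 ∈ I) (m3 : f3 ∈ I) :
    (∀ g p : S K, p ∈ lexPlusPowers b I → g * p ∈ lexPlusPowers b I) ∧
      (∀ d, finrank K (Jd b I d) = gdim I d) :=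
  egh hb I ⟨hreg, h1, h2, h3, by omega⟩ m1 m2 m3

end Vale.Agent.Results.P200.ThreeBB
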