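import Vale.Agent.Lib.P200.Base3
import Vale.Agent.Lib.P200.Hilbert

open MvPolynomial Module

namespace Vale.Agent.Results.P200.ThreeCubics

open Vale.Agent.P200

/-- **The Eisenbud-Green-Harris conjecture for three cubics in three variables.**
Let `K` be any field, `S = K[x, y, z]` and let `I` be a homogeneous ideal of `S` containing a
regular sequence `f1, f2, f3` of cubic forms. Then the lex-plus-powers graded subspace
`J = ⨁ J_d`, with `J_d` spanned by `P_d` and the `q_d = dim I_d - dim P_d` lex-greatest monomials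
of degree `d` outside `P = (x³, y³, z³)`, is an ideal, with the Hilbert function of `I`. -/
theorem result {K : Type*} [Field K] (I : Ideal (S K))
    (_hI : ∀ p ∈ I, ∀ n, homogeneousComponent n p ∈ I)
    (f1 f2 f3 : S K) (h1 : f1 ∈ H K 3) (h2 : f2 ∈ H K 3) (h3 : f3 ∈ H K 3)
    (hreg : RegSeq f1 f2 f3) (m1 : f1 ∈ I) (m2 : f2 ∈ I) (m3 : f3 ∈ I) :
    (∀ g p : S K, p ∈ lexPlusPowers I → g * p ∈ lexPlusPowers I) ∧
      (∀ d, finrank K (Jd I d) = gdim I d) := by
  have h : Cubics f1 f2 f3 := ⟨hreg, h1, h2, h3⟩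
  refine ⟨fun g p hp => ?_, finrank_Jd I h m1 m2 m3⟩
  exact J_mul_of_step I (qd_bounds I h m1 m2 m3 (fun hd _ hFV hV => h.growth hd hFV hV)) g hp

end Vale.Agent.Results.P200.ThreeCubics
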